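import Mathlib

/-! S0151: the determinant of `1 - S` for a quasinilpotent `S` and a partially tracial state. -/

set_option autoImplicit false
open Finset Filter

namespace Crest.Agent.R113c

variable {𝔸 : Type*} [CStarAlgebra 𝔸] [PartialOrder 𝔸] [StarOrderedRing 𝔸] [Nontrivial 𝔸]

/-- real part of a state -/
structure St (τ : 𝔸 →L[ℝ] ℝ) : Prop where
  mono : ∀ a b, a ≤ b → τ a ≤ τ b
  one : τ 1 = 1
  le : ∀ a, |τ a| ≤ ‖a‖
  star : ∀ a, τ (star a) = τ a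

variable {τ : 𝔸 →L[ℝ] ℝ}

omit [StarOrderedRing 𝔸] [Nontrivial 𝔸] in
theorem St.alg (h : St τ) (r : ℝ) : τ (algebraMap ℝ 𝔸 r) = r := by
  rw [Algebra.algebraMap_eq_smul_one, map_smul, h.one, smul_eq_mul, mul_one]

omit [PartialOrder 𝔸] [StarOrderedRing 𝔸] [Nontrivial 𝔸] in
theorem cfc_poly {Y : 𝔸} (hY : IsSelfAdjoint Y) (w : ℕ → ℝ) (n : ℕ) :
    cfc (fun y : ℝ => ∑ j ∈ range n, w j * y ^ (j + 1)) Y = ∑ j ∈ range n, w j • Y ^ (j + 1) := by
  have := cfc_sum (fun j => fun y : ℝ => w j * y ^ (j + 1)) Y (range n) (fun _ _ => by fun_prop)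
  rw [show (fun y : ℝ => ∑ j ∈ range n, w j * y ^ (j + 1)) =
    ∑ j ∈ range n, fun y : ℝ => w j * y ^ (j + 1) by ext y; simp, this]
  refine sum_congr rfl fun j _ => ?_
  rw [cfc_const_mul _ _ _ (by fun_prop), cfc_pow_id Y _ hY]

omit [PartialOrder 𝔸] [StarOrderedRing 𝔸] [Nontrivial 𝔸] in
theorem cfc_aff {Y : 𝔸} (hY : IsSelfAdjoint Y) (a b : ℝ) :
    cfc (fun y : ℝ => a - b * y) Y = algebraMap ℝ 𝔸 a - b • Y := by
  rw [cfc_sub _ _ _ (by fun_prop) (by fun_prop), cfc_const _ _ hY, cfc_const_mul_id _ _ hY]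

omit [PartialOrder 𝔸] [StarOrderedRing 𝔸] [Nontrivial 𝔸] in
theorem cont_log {Y : 𝔸} {a b : ℝ} (h : ∀ y ∈ spectrum ℝ Y, 0 < a - b * y) :
    ContinuousOn (fun y : ℝ => Real.log (a - b * y)) (spectrum ℝ Y) :=
  ContinuousOn.log (by fun_prop) fun y hy => (h y hy).ne'

omit [PartialOrder 𝔸] [StarOrderedRing 𝔸] [Nontrivial 𝔸] in
theorem cfc_log_aff {Y : 𝔸} (hY : IsSelfAdjoint Y) {a b : ℝ}
    (h : ∀ y ∈ spectrum ℝ Y, 0 < a - b * y) :
    cfc Real.log (algebraMap ℝ 𝔸 a - b • Y) = cfc (fun y : ℝ => Real.log (a - b * y)) Y := by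
  rw [← cfc_aff hY, ← cfc_comp' Real.log (fun y : ℝ => a - b * y) Y
    (Real.continuousOn_log.mono (by rintro _ ⟨y, hy, rfl⟩; exact (h y hy).ne')) (by fun_prop) hY]

omit [PartialOrder 𝔸] [StarOrderedRing 𝔸] in
theorem abs_spec {Y : 𝔸} {y : ℝ} (hy : y ∈ spectrum ℝ Y) : |y| ≤ ‖Y‖ :=
  spectrum.norm_le_norm_of_mem hy

omit [StarOrderedRing 𝔸] in
theorem log_approx (h : St τ) {Y : 𝔸} (hY : IsSelfAdjoint Y) {ρ : ℝ} (h1 : ‖Y‖ ≤ ρ) (h2 : ρ < 1)
    (n : ℕ) : |τ (cfc (fun y : ℝ => Real.log (1 - 1 * y)) Y) +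
      τ (∑ j ∈ range n, ((j : ℝ) + 1)⁻¹ • Y ^ (j + 1))| ≤ ρ ^ n / (1 - ρ) := by
  have ρ0 : 0 ≤ ρ := (norm_nonneg _).trans h1
  have hs : ∀ y ∈ spectrum ℝ Y, 0 < 1 - 1 * y := fun y hy => by
    have := (abs_le.1 ((abs_spec hy).trans h1)).2
    linarith
  rw [← map_add, ← cfc_poly hY, ← cfc_add _ _ _ (cont_log hs) (by fun_prop)]
  refine (h.le _).trans (norm_cfc_le (div_nonneg (by positivity) (by linarith)) fun y hy => ?_)
  have a1 := (abs_spec hy).trans h1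
  have a2 := Real.abs_log_sub_add_sum_range_le (a1.trans_lt h2) n
  rw [Real.norm_eq_abs, one_mul, add_comm]
  simp only [← div_eq_inv_mul]
  refine a2.trans (div_le_div₀ (by positivity) ?_ (by linarith) (by linarith))
  exact (pow_le_pow_left₀ (abs_nonneg _) a1 _).trans
    (pow_le_pow_of_le_one ρ0 h2.le (Nat.le_succ n))

theorem norm_lt_one {X : 𝔸} (hX : IsUnit X) {κ : ℝ} (h0 : 0 < κ) (h1 : κ * ‖X‖ ^ 2 ≤ 1) :
    ‖1 - κ • (star X * X)‖ < 1 := by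
  have hp : 0 ≤ star X * X := star_mul_self_nonneg X
  have := cfc_aff (IsSelfAdjoint.star_mul_self X) 1 κ
  rw [map_one] at this
  rw [← this]
  refine norm_cfc_lt one_pos fun y hy => ?_
  have a1 := spectrum_nonneg_of_nonneg hp hy
  have a2 : y ≠ 0 := fun e => spectrum.zero_notMem ℝ (hX.star.mul hX) (e ▸ hy)
  have a3 := (le_abs_self y).trans (abs_spec hy)
  rw [CStarRing.norm_star_mul_self, ← sq] at a3
  have a4 := mul_pos h0 (lt_of_le_of_ne a1 a2.symm)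
  have a5 := mul_le_mul_of_nonneg_left a3 h0.le
  rw [Real.norm_eq_abs, abs_lt]
  constructor <;> linarith

/-- elements of `𝒜` that are central for `τ` on `𝒜` -/
def cen (τ : 𝔸 →L[ℝ] ℝ) (𝒜 : Subalgebra ℝ 𝔸) : Subalgebra ℝ 𝔸 where
  carrier := {B | B ∈ 𝒜 ∧ ∀ A ∈ 𝒜, τ (A * B) = τ (B * A)}
  mul_mem' := fun {B C} hB hC => ⟨mul_mem hB.1 hC.1, fun A hA => by
    rw [← mul_assoc, hC.2 _ (mul_mem hA hB.1), ← mul_assoc, hB.2 _ (mul_mem hC.1 hA), mul_assoc]⟩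
  add_mem' := fun {B C} hB hC => ⟨add_mem hB.1 hC.1, fun A hA => by
    rw [mul_add, add_mul, map_add, map_add, hB.2 A hA, hC.2 A hA]⟩
  algebraMap_mem' := fun r => ⟨𝒜.algebraMap_mem r, fun A _ => by rw [Algebra.commutes]⟩

theorem key (h : St τ) (𝒜 : Subalgebra ℝ 𝔸) {S : 𝔸} (hS : S ∈ cen τ 𝒜) (hS' : star S ∈ cen τ 𝒜)
    (hR : ∀ t : ℝ, ∃ R ∈ 𝒜, star R ∈ 𝒜 ∧ R * (1 - t • S) = 1 ∧ (1 - t • S) * R = 1 ∧
      τ (S * R) = 0) :
    ∃ κ ρ : ℝ, ∃ Y : 𝔸, 0 < κ ∧ ρ < 1 ∧ IsSelfAdjoint Y ∧ ‖Y‖ ≤ ρ ∧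
      star (1 - S) * (1 - S) = κ⁻¹ • (1 - Y) ∧
      τ (cfc (fun y : ℝ => Real.log (1 - 1 * y)) Y) = Real.log κ := by
  obtain ⟨κ, κ0, κ1⟩ : ∃ κ : ℝ, 0 < κ ∧ κ * (1 + ‖S‖) ^ 2 = 1 :=
    ⟨((1 + ‖S‖) ^ 2)⁻¹, by positivity, inv_mul_cancel₀ (by positivity)⟩
  set X : ℝ → 𝔸 := fun t => 1 - t • S with hX
  set Y : ℝ → 𝔸 := fun t => 1 - κ • (star (X t) * X t) with hY
  set Y' : ℝ → 𝔸 := fun t => κ • (star S * X t + star (X t) * S) with hY'
  have sX : ∀ t, star (X t) = 1 - t • star S := fun t => by simp [hX]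
  have nX : ∀ t ∈ Set.Icc (0 : ℝ) 1, ‖X t‖ ≤ 1 + ‖S‖ := fun t ht => by
    refine (norm_sub_le _ _).trans ?_
    rw [norm_one, norm_smul, Real.norm_of_nonneg ht.1]
    have := mul_le_of_le_one_left (norm_nonneg S) ht.2
    linarith
  have dY : ∀ t, HasDerivAt Y (Y' t) t := fun t => by
    have d1 : HasDerivAt X (-S) t := by
      simpa using ((hasDerivAt_id t).smul_const S).const_sub 1
    have d2 : HasDerivAt (fun t => star (X t)) (-star S) t := by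
      simp only [sX]
      simpa using ((hasDerivAt_id t).smul_const (star S)).const_sub 1
    have d3 := ((d2.mul d1).const_smul κ).const_sub 1
    refine d3.congr_deriv ?_
    simp only [hY', neg_mul, mul_neg, ← neg_add, smul_neg, neg_neg]
  have sY : ∀ t, IsSelfAdjoint (Y t) := fun t =>
    (IsSelfAdjoint.one 𝔸).sub ((IsSelfAdjoint.all κ).smul (IsSelfAdjoint.star_mul_self _))
  obtain ⟨ρ, ρ1, hρ⟩ : ∃ ρ : ℝ, ρ < 1 ∧ ∀ t ∈ Set.Icc (0 : ℝ) 1, ‖Y t‖ ≤ ρ := by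
    have hc : Continuous fun t => ‖Y t‖ :=
      (continuous_iff_continuousAt.2 fun t => (dY t).continuousAt).norm
    obtain ⟨t0, ht0, hm⟩ := isCompact_Icc.exists_isMaxOn (Set.nonempty_Icc.2 zero_le_one)
      hc.continuousOn
    refine ⟨‖Y t0‖, ?_, fun t ht => hm ht⟩
    obtain ⟨R, -, -, r1, r2, -⟩ := hR t0
    refine norm_lt_one ⟨⟨X t0, R, r2, r1⟩, rfl⟩ κ0 (le_trans ?_ κ1.le)
    exact mul_le_mul_of_nonneg_left (pow_le_pow_left₀ (norm_nonneg _) (nX t0 ht0) 2) κ0.le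
  have ρ0 : 0 ≤ ρ := (norm_nonneg _).trans (hρ 0 (by simp))
  have cX : ∀ t, X t ∈ cen τ 𝒜 := fun t => sub_mem (one_mem _) (Subalgebra.smul_mem _ hS t)
  have cX' : ∀ t, star (X t) ∈ cen τ 𝒜 := fun t => by
    rw [sX]; exact sub_mem (one_mem _) (Subalgebra.smul_mem _ hS' t)
  have cY : ∀ t, Y t ∈ cen τ 𝒜 := fun t =>
    sub_mem (one_mem _) (Subalgebra.smul_mem _ (mul_mem (cX' t) (cX t)) κ)
  have cY' : ∀ t, Y' t ∈ 𝒜 := fun t => Subalgebra.smul_mem _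
    (add_mem (mul_mem hS'.1 (cX t).1) (mul_mem (cX' t).1 hS.1)) κ
  have nY' : ∀ t ∈ Set.Icc (0 : ℝ) 1, ‖Y' t‖ ≤ 2 := fun t ht => by
    have a1 := nX t ht
    have a2 := norm_mul_le (star S) (X t)
    have a3 := norm_mul_le (star (X t)) S
    rw [norm_star] at a2 a3
    have a4 := norm_add_le (star S * X t) (star (X t) * S)
    have a5 := mul_le_mul_of_nonneg_left a1 (norm_nonneg S)
    have a6 : ‖star S * X t + star (X t) * S‖ ≤ 2 * (1 + ‖S‖) ^ 2 := by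
      nlinarith [norm_nonneg S]
    rw [hY', norm_smul, Real.norm_of_nonneg κ0.le]
    have a7 := mul_le_mul_of_nonneg_left a6 κ0.le
    linarith
  have hG : ∀ t, ∃ G : 𝔸, (1 - Y t) * G = Y' t ∧ τ G = 0 := fun t => by
    obtain ⟨R, m1, m2, r1, r2, r3⟩ := hR t
    change R * X t = 1 at r1
    change X t * R = 1 at r2
    have r4 : star (X t) * star R = 1 := by rw [← star_mul, r1, star_one]
    refine ⟨R * (star R * star S) * X t + R * S, ?_, ?_⟩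
    · simp only [hY, hY', sub_sub_cancel, smul_mul_assoc]
      congr 1
      have e1 : star (X t) * X t * (R * (star R * star S) * X t) =
          star (X t) * (X t * R) * star R * (star S * X t) := by noncomm_ring
      have e2 : star (X t) * X t * (R * S) = star (X t) * (X t * R) * S := by noncomm_ring
      rw [mul_add, e1, e2, r2, mul_one, r4, one_mul]
    · rw [map_add, (cX t).2 _ (mul_mem m1 (mul_mem m2 hS'.1)), ← mul_assoc, r2, one_mul,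
        ← star_mul, h.star, hS.2 R m1, r3, add_zero]
  have hφ : ∀ n : ℕ, |τ (∑ j ∈ range n, ((j : ℝ) + 1)⁻¹ • Y 1 ^ (j + 1)) -
      τ (∑ j ∈ range n, ((j : ℝ) + 1)⁻¹ • Y 0 ^ (j + 1))| ≤ ρ ^ n * (2 / (1 - ρ)) := fun n => by
    refine norm_image_sub_le_of_norm_deriv_le_segment_01'
      (f := fun t => τ (∑ j ∈ range n, ((j : ℝ) + 1)⁻¹ • Y t ^ (j + 1)))
      (f' := fun t => τ (∑ j ∈ range n, ((j : ℝ) + 1)⁻¹ •
        ∑ i ∈ range (j + 1), Y t ^ ((j + 1).pred - i) * Y' t * Y t ^ i))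
      (fun t _ => HasDerivAt.hasDerivWithinAt ?_) fun t ht => ?_
    · exact τ.hasFDerivAt.comp_hasDerivAt t
        (HasDerivAt.fun_sum fun j _ => ((dY t).fun_pow' (j + 1)).const_smul _)
    · have ht' := Set.Ico_subset_Icc_self ht
      obtain ⟨G, g1, g2⟩ := hG t
      have e1 : τ (∑ j ∈ range n, ((j : ℝ) + 1)⁻¹ •
          ∑ i ∈ range (j + 1), Y t ^ ((j + 1).pred - i) * Y' t * Y t ^ i) =
          τ ((∑ j ∈ range n, Y t ^ j) * Y' t) := by
        rw [sum_mul, map_sum, map_sum]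
        refine sum_congr rfl fun j _ => ?_
        rw [map_smul, map_sum, sum_congr rfl (g := fun _ => τ (Y t ^ j * Y' t)) fun i hi => ?_,
          sum_const, card_range, nsmul_eq_mul, smul_eq_mul, Nat.cast_succ,
          inv_mul_cancel_left₀ (by positivity)]
        rw [(pow_mem (cY t) i).2 _ (mul_mem (pow_mem (cY t).1 _) (cY' t)), ← mul_assoc, ← pow_add,
          Nat.pred_succ, Nat.add_sub_cancel' (Nat.lt_succ_iff.1 (mem_range.1 hi))]
      have e2 : ‖G‖ ≤ 2 / (1 - ρ) := by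
        have a1 : G = Y' t + Y t * G := by rw [← g1, sub_mul, one_mul, sub_add_cancel]
        have a2 := norm_add_le (Y' t) (Y t * G)
        rw [← a1] at a2
        have a3 := (norm_mul_le (Y t) G).trans (mul_le_mul_of_nonneg_right (hρ t ht') (norm_nonneg _))
        have a4 := nY' t ht'
        rw [le_div_iff₀ (by linarith)]
        linarith
      rw [e1, ← g1, ← mul_assoc, geom_sum_mul_neg, sub_mul, one_mul, map_sub, g2, zero_sub, norm_neg]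
      refine (h.le _).trans ((norm_mul_le _ _).trans (mul_le_mul ((norm_pow_le _ _).trans
        (pow_le_pow_left₀ (norm_nonneg _) (hρ t ht') n)) e2 (norm_nonneg _) (by positivity)))
  refine ⟨κ, ρ, Y 1, κ0, ρ1, sY 1, hρ 1 (by simp), ?_, ?_⟩
  · simp only [hY, hX, one_smul, sub_sub_cancel, smul_smul, inv_mul_cancel₀ κ0.ne']
  · have e0 : τ (cfc (fun y : ℝ => Real.log (1 - 1 * y)) (Y 0)) = Real.log κ := by
      have : Y 0 = algebraMap ℝ 𝔸 (1 - κ) := by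
        simp [hY, hX, Algebra.algebraMap_eq_smul_one, sub_smul]
      rw [this, cfc_algebraMap, h.alg]
      simp
    have ht : Tendsto (fun n : ℕ => ρ ^ n * (4 / (1 - ρ))) atTop (nhds 0) := by
      simpa using (tendsto_pow_atTop_nhds_zero_of_lt_one ρ0 ρ1).mul_const (4 / (1 - ρ))
    refine sub_eq_zero.1 (abs_nonpos_iff.1 (ge_of_tendsto' ht fun n => ?_))
    have a1 := abs_le.1 (log_approx h (sY 1) (hρ 1 (by simp)) ρ1 n)
    have a2 := abs_le.1 (log_approx h (sY 0) (hρ 0 (by simp)) ρ1 n)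
    have a3 := abs_le.1 (hφ n)
    rw [e0] at a2
    have a4 : ρ ^ n * (4 / (1 - ρ)) = 2 * (ρ ^ n / (1 - ρ)) + ρ ^ n * (2 / (1 - ρ)) := by ring
    rw [abs_le]
    constructor <;> linarith

theorem exists_pos_lt {g : ℝ → ℝ} (hg : ContinuousAt g 0) {w : ℝ} (h : g 0 < w) :
    ∃ ε : {r : ℝ // 0 < r}, g ε < w := by
  have h1 : ∀ᶠ ε in nhdsWithin (0 : ℝ) (Set.Ioi 0), g ε < w :=
    (hg.eventually (gt_mem_nhds h)).filter_mono nhdsWithin_le_nhds
  obtain ⟨ε, h2, h3⟩ := (h1.and self_mem_nhdsWithin).exists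
  exact ⟨⟨ε, h3⟩, h2⟩

theorem det_ne (h : St τ) (𝒜 : Subalgebra ℝ 𝔸) {S : 𝔸} (hS : S ∈ cen τ 𝒜) (hS' : star S ∈ cen τ 𝒜)
    (hR : ∀ t : ℝ, ∃ R ∈ 𝒜, star R ∈ 𝒜 ∧ R * (1 - t • S) = 1 ∧ (1 - t • S) * R = 1 ∧
      τ (S * R) = 0) {r : ℝ} (hr : 0 < r) :
    ⨅ ε : {r : ℝ // 0 < r}, Real.exp (τ (cfc Real.log
      (r ^ 2 • (star (1 - S) * (1 - S)) + algebraMap ℝ 𝔸 ε)) / 2) = r := by
  obtain ⟨κ, ρ, Y, κ0, ρ1, sY, nY, e1, e2⟩ := key h 𝒜 hS hS' hR
  have hy : ∀ y ∈ spectrum ℝ Y, 1 - ρ ≤ 1 - 1 * y := fun y hy => by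
    have := (abs_le.1 ((abs_spec hy).trans nY)).2
    linarith
  have hy' : ∀ y ∈ spectrum ℝ Y, 0 < 1 - 1 * y := fun y h => by linarith [hy y h]
  have a0 : 0 < r ^ 2 * κ⁻¹ := by positivity
  have hl : Real.log (r ^ 2 * κ⁻¹) + Real.log κ = 2 * Real.log r := by
    rw [← Real.log_mul a0.ne' κ0.ne', inv_mul_cancel_right₀ κ0.ne', Real.log_pow]; norm_num
  have hE : ∀ ε : ℝ, 0 < ε → 2 * Real.log r ≤
      τ (cfc Real.log (r ^ 2 • (star (1 - S) * (1 - S)) + algebraMap ℝ 𝔸 ε)) ∧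
      τ (cfc Real.log (r ^ 2 • (star (1 - S) * (1 - S)) + algebraMap ℝ 𝔸 ε)) ≤
        2 * Real.log r + ε / (r ^ 2 * κ⁻¹ * (1 - ρ)) := by
    intro ε hε
    rw [e1, smul_smul]
    generalize r ^ 2 * κ⁻¹ = a at a0 hl ⊢
    have ρ2 : 0 < 1 - ρ := by linarith
    have e3 : a • (1 - Y) + algebraMap ℝ 𝔸 ε = algebraMap ℝ 𝔸 (a + ε) - a • Y := by
      rw [map_add, smul_sub, Algebra.algebraMap_eq_smul_one a]; abel
    have hs : ∀ y ∈ spectrum ℝ Y, 0 < a + ε - a * y := fun y h => by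
      have := mul_pos a0 (hy' y h)
      linarith
    have e4 : ∀ u : ℝ, τ (cfc (fun y : ℝ => u + Real.log (1 - 1 * y)) Y) = u + Real.log κ := by
      intro u
      rw [cfc_const_add _ _ _ (cont_log hy') sY, map_add, h.alg, e2]
    rw [e3, cfc_log_aff sY hs, ← hl, add_right_comm, ← e4, ← e4]
    constructor
    · refine h.mono _ _ (cfc_mono (fun y h => ?_) (continuousOn_const.add (cont_log hy'))
        (cont_log hs))
      rw [← Real.log_mul a0.ne' (hy' y h).ne']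
      exact Real.log_le_log (mul_pos a0 (hy' y h)) (by linarith)
    · refine h.mono _ _ (cfc_mono (fun y h => ?_) (cont_log hs)
        (continuousOn_const.add (cont_log hy')))
      have b1 := mul_pos a0 (hy' y h)
      have b2 := Real.log_le_sub_one_of_pos (div_pos (hs y h) b1)
      rw [Real.log_div (hs y h).ne' b1.ne', Real.log_mul a0.ne' (hy' y h).ne'] at b2
      have b3 : (a + ε - a * y) / (a * (1 - 1 * y)) - 1 = ε / (a * (1 - 1 * y)) := by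
        rw [div_sub_one b1.ne']
        congr 1
        ring
      have b4 : ε / (a * (1 - 1 * y)) ≤ ε / (a * (1 - ρ)) :=
        div_le_div_of_nonneg_left hε.le (mul_pos a0 ρ2) (mul_le_mul_of_nonneg_left (hy y h) a0.le)
      linarith
  have : Nonempty {r : ℝ // 0 < r} := ⟨⟨1, one_pos⟩⟩
  refine ciInf_eq_of_forall_ge_of_forall_gt_exists_lt (fun ε => ?_) fun w hw => ?_
  · rw [← Real.exp_log hr]
    refine Real.exp_le_exp.2 ?_
    rw [Real.exp_log hr]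
    linarith [(hE ε ε.2).1]
  · obtain ⟨ε, hε⟩ := exists_pos_lt
      (g := fun ε => Real.exp ((2 * Real.log r + ε / (r ^ 2 * κ⁻¹ * (1 - ρ))) / 2)) (w := w)
      (by fun_prop) (by simpa [Real.exp_log hr] using hw)
    exact ⟨ε, lt_of_le_of_lt (Real.exp_le_exp.2 (by linarith [(hE ε ε.2).2])) hε⟩

theorem det_zero (h : St τ) {T : 𝔸} (hT : ‖T‖ ≤ 1)
    (ha : Tendsto (fun n => ∑ j ∈ range n, τ ((1 - star T * T) ^ (j + 1)) / ((j : ℝ) + 1))
      atTop atTop) :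
    ⨅ ε : {r : ℝ // 0 < r}, Real.exp (τ (cfc Real.log (star T * T + algebraMap ℝ 𝔸 ε)) / 2) = 0 := by
  set Y := 1 - star T * T with hY
  have sY : IsSelfAdjoint Y := (IsSelfAdjoint.one 𝔸).sub (IsSelfAdjoint.star_mul_self _)
  have p0 : 0 ≤ star T * T := star_mul_self_nonneg T
  have Y0 : 0 ≤ Y := sub_nonneg.2 ((CStarAlgebra.norm_le_one_iff_of_nonneg _ p0).1 (by
    rw [CStarRing.norm_star_mul_self]
    exact mul_le_one₀ hT (norm_nonneg _) hT))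
  have Y1 : ‖Y‖ ≤ 1 := (CStarAlgebra.norm_le_one_iff_of_nonneg _ Y0).2 (sub_le_self _ p0)
  have hE : ∀ (n : ℕ) (ε : ℝ), 0 < ε → τ (cfc Real.log (star T * T + algebraMap ℝ 𝔸 ε)) ≤
      Real.log (1 + ε) - ∑ j ∈ range n, (1 + ε)⁻¹ ^ (j + 1) * (τ (Y ^ (j + 1)) / ((j : ℝ) + 1)) := by
    intro n ε hε
    have e3 : star T * T + algebraMap ℝ 𝔸 ε = algebraMap ℝ 𝔸 (1 + ε) - (1 : ℝ) • Y := by
      rw [map_add, map_one, one_smul, hY]; abel
    have hs : ∀ y ∈ spectrum ℝ Y, 0 < 1 + ε - 1 * y := fun y h => by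
      have := (abs_le.1 ((abs_spec h).trans Y1)).2
      linarith
    have e4 : τ (cfc (fun y : ℝ => Real.log (1 + ε) +
        ∑ j ∈ range n, -((1 + ε)⁻¹ ^ (j + 1) / ((j : ℝ) + 1)) * y ^ (j + 1)) Y) =
        Real.log (1 + ε) -
          ∑ j ∈ range n, (1 + ε)⁻¹ ^ (j + 1) * (τ (Y ^ (j + 1)) / ((j : ℝ) + 1)) := by
      rw [cfc_const_add _ _ _ (by fun_prop) sY, cfc_poly sY, map_add, h.alg, map_sum,
        sub_eq_add_neg, ← sum_neg_distrib]
      congr 1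
      exact sum_congr rfl fun j _ => by rw [map_smul, smul_eq_mul]; ring
    rw [e3, cfc_log_aff sY hs, ← e4]
    refine h.mono _ _ (cfc_mono (fun y h => ?_) (cont_log hs) (by fun_prop))
    have b0 : 0 < 1 + ε := by linarith
    have b1 := spectrum_nonneg_of_nonneg Y0 h
    have b2 := hs y h
    have b3 : 0 ≤ (1 + ε)⁻¹ * y := by positivity
    have b4 : |(1 + ε)⁻¹ * y| < 1 := by
      rw [abs_of_nonneg b3, inv_mul_lt_iff₀ b0]; linarith
    have b5 := sum_le_hasSum (range n) (fun j _ => by positivity)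
      (Real.hasSum_pow_div_log_of_abs_lt_one b4)
    have b6 : 1 - (1 + ε)⁻¹ * y = (1 + ε - 1 * y) / (1 + ε) := by field_simp
    rw [b6, Real.log_div b2.ne' b0.ne'] at b5
    have b7 : ∑ j ∈ range n, -((1 + ε)⁻¹ ^ (j + 1) / ((j : ℝ) + 1)) * y ^ (j + 1) =
        -∑ j ∈ range n, ((1 + ε)⁻¹ * y) ^ (j + 1) / ((j : ℝ) + 1) := by
      rw [← sum_neg_distrib]
      exact sum_congr rfl fun j _ => by ring
    linarith
  have : Nonempty {r : ℝ // 0 < r} := ⟨⟨1, one_pos⟩⟩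
  refine ciInf_eq_of_forall_ge_of_forall_gt_exists_lt (fun ε => (Real.exp_pos _).le) fun w hw => ?_
  obtain ⟨n, hn⟩ := (ha.eventually_gt_atTop (-(2 * Real.log w))).exists
  obtain ⟨ε, hε⟩ := exists_pos_lt (g := fun ε => Real.log (1 + ε) -
      ∑ j ∈ range n, (1 + ε)⁻¹ ^ (j + 1) * (τ (Y ^ (j + 1)) / ((j : ℝ) + 1))) (w := 2 * Real.log w)
    (by fun_prop (disch := norm_num)) (by
      simp only [add_zero, Real.log_one, inv_one, one_pow, one_mul]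
      linarith)
  refine ⟨ε, ?_⟩
  rw [← Real.exp_log hw]
  exact Real.exp_lt_exp.2 (by linarith [hE n ε ε.2])

end Crest.Agent.R113c
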