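import Crest.Agent.R113c.Orb

/-! S0151: decay of the products of weights; divergence of the logarithmic series. -/

set_option autoImplicit false
open MeasureTheory Filter Finset Crest.AnalysisR.ProductShift

namespace Crest.Agent.R113c

variable {θ c : ℕ → ℝ}

namespace DecX

theorem log_le_drop (θ c x : ℕ → ℝ) :
    ENNReal.ofReal (- Real.log (weight θ c x)) ≤ dropCost θ c x := by
  unfold weight
  split_ifs with h
  · rw [h]; exact le_top
  · rw [Real.log_exp, neg_neg, ENNReal.ofReal_toReal h]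

theorem one_le {t a : ℝ} (ht : 0 < t ∧ t < 1) (ha : 0 ≤ a) :
    ∫⁻ y, ENNReal.ofReal (a * (⌊y + t⌋ : ℝ)) ∂unitLebesgue ≤ ENNReal.ofReal (a * t) := by
  unfold unitLebesgue
  have h1 : ∫⁻ y in Set.Ico (0 : ℝ) 1, ENNReal.ofReal (a * (⌊y + t⌋ : ℝ)) ≤
      ∫⁻ y in Set.Ico (0 : ℝ) 1, (Set.Ico (1 - t) 1).indicator (fun _ => ENNReal.ofReal a) y := by
    refine setLIntegral_mono' measurableSet_Ico fun y hy => ?_
    by_cases h : 1 - t ≤ y
    · rw [Set.indicator_of_mem (show y ∈ Set.Ico (1 - t) 1 from ⟨h, hy.2⟩)]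
      have h2 : ⌊y + t⌋ < 2 := Int.floor_lt.2 (by push_cast; linarith [hy.2, ht.2])
      have h3 : (⌊y + t⌋ : ℝ) ≤ 1 := by exact_mod_cast (by omega : ⌊y + t⌋ ≤ 1)
      exact ENNReal.ofReal_le_ofReal (by nlinarith)
    · have h2 : ⌊y + t⌋ < 1 := Int.floor_lt.2 (by push_cast; linarith)
      have h3 : (⌊y + t⌋ : ℝ) ≤ 0 := by exact_mod_cast (by omega : ⌊y + t⌋ ≤ 0)
      rw [ENNReal.ofReal_of_nonpos (by nlinarith)]
      exact zero_le
  refine h1.trans ((setLIntegral_le_lintegral _ _).trans ?_)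
  rw [lintegral_indicator_const measurableSet_Ico, Real.volume_Ico, ← ENNReal.ofReal_mul ha]
  exact ENNReal.ofReal_le_ofReal (le_of_eq (by ring))

theorem weight_le (θ c y : ℕ → ℝ) (M : ℕ) :
    weight θ c y ≤ Real.exp (-∑ i ∈ range M, c i * (⌊y i + θ i⌋ : ℝ)) := by
  unfold weight
  split_ifs with h
  · exact (Real.exp_pos _).le
  · refine Real.exp_le_exp.2 (neg_le_neg ?_)
    have h1 : ∑ i ∈ range M, ENNReal.ofReal (c i * (⌊y i + θ i⌋ : ℝ)) ≤ dropCost θ c y :=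
      ENNReal.sum_le_tsum _
    refine le_trans ?_ (ENNReal.toReal_mono h h1)
    rw [ENNReal.toReal_sum fun _ _ => ENNReal.ofReal_ne_top]
    exact sum_le_sum fun i _ => by
      rw [ENNReal.toReal_ofReal']; exact le_max_left _ _

theorem tele (a t : ℝ) (k : ℤ) (n : ℕ) :
    n * t - 1 ≤ ∑ j ∈ range n, (⌊Int.fract (a + ((k - 1 - j : ℤ) : ℝ) * t) + t⌋ : ℝ) := by
  have h1 : ∀ b : ℝ, ⌊Int.fract b + t⌋ = ⌊b + t⌋ - ⌊b⌋ := by
    intro b
    rw [Int.fract, show b - ⌊b⌋ + t = b + t - ⌊b⌋ by ring, Int.floor_sub_intCast]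
  have h2 : ∑ j ∈ range n, (⌊Int.fract (a + ((k - 1 - j : ℤ) : ℝ) * t) + t⌋ : ℝ)
      = (⌊a + k * t⌋ : ℝ) - ⌊a + k * t - n * t⌋ := by
    induction n with
    | zero => simp
    | succ n ih =>
      rw [sum_range_succ, ih, h1]
      push_cast
      rw [show a + (k - 1 - n) * t + t = a + k * t - n * t by ring,
        show a + (k - 1 - n) * t = a + k * t - (n + 1) * t by ring]
      ring
  rw [h2]
  have := Int.lt_floor_add_one (a + k * t)
  have := Int.floor_le (a + k * t - n * t)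
  linarith

end DecX

open DecX

/-- `ofReal (-log (weight x)) ≤ dropCost x` for every `x`, `lintegral_tsum`, and
`∫⁻ ofReal (c ⌊x + θ⌋) d unitLebesgue ≤ ofReal (c θ)` (on `[0,1)` the integrand is at most the indicator of
`[1 - θ, ∞)` times `ofReal c`; `measurePreserving_eval_infinitePi`); so `fun i => c i * θ i` is not summable. -/
theorem sum_cθ (hθ : ∀ i, 0 < θ i ∧ θ i < 1) (hc : ∀ i, 0 ≤ c i)
    (hlog : ∫⁻ x, ENNReal.ofReal (- Real.log (weight θ c x)) ∂cubeMeasure = ⊤) :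
    Tendsto (fun M => ∑ i ∈ range M, c i * θ i) atTop atTop := by
  have h0 : ∀ i, 0 ≤ c i * θ i := fun i => mul_nonneg (hc i) (hθ i).1.le
  rw [← not_summable_iff_tendsto_nat_atTop_of_nonneg h0]
  intro hs
  have hm : ∀ i, Measurable fun y : ℝ => ENNReal.ofReal (c i * (⌊y + θ i⌋ : ℝ)) := by
    intro i
    refine ENNReal.measurable_ofReal.comp (measurable_const.mul ?_)
    exact (measurable_from_top (f := fun z : ℤ => (z : ℝ))).comp
      (measurable_id.add_const (θ i)).floor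
  have h1 : ∫⁻ x, dropCost θ c x ∂cubeMeasure ≤ ∑' i, ENNReal.ofReal (c i * θ i) := by
    unfold dropCost
    rw [lintegral_tsum (f := fun i (x : ℕ → ℝ) => ENNReal.ofReal (c i * (⌊x i + θ i⌋ : ℝ)))
      fun i => ((hm i).comp (measurable_pi_apply i)).aemeasurable]
    refine ENNReal.tsum_le_tsum fun i => le_trans (le_of_eq ?_) (one_le (hθ i) (hc i))
    exact (measurePreserving_eval_infinitePi (fun _ : ℕ => unitLebesgue) i).lintegral_comp (hm i)
  rw [← ENNReal.ofReal_tsum_of_nonneg h0 hs] at h1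
  have h2 := (lintegral_mono (μ := cubeMeasure) (log_le_drop θ c)).trans h1
  rw [hlog] at h2
  exact ENNReal.ofReal_ne_top (top_le_iff.1 h2)

/-- `weight θ c y ≤ exp (-∑_{i<M} c i ⌊y i + θ i⌋)`; `⌊fract a + θ⌋ = ⌊a + θ⌋ - ⌊a⌋` telescopes along the orbit
to `⌊b + n θ⌋ - ⌊b⌋ ≥ n θ - 1`; choose `M` with `exp (-∑_{i<M} c i θ i) ≤ r`, `C = exp (∑_{i<M} c i)`. -/
theorem prod_weight_le (hθ : ∀ i, 0 < θ i ∧ θ i < 1) (hc : ∀ i, 0 ≤ c i)
    (hlog : ∫⁻ x, ENNReal.ofReal (- Real.log (weight θ c x)) ∂cubeMeasure = ⊤) {r : ℝ} (hr : 0 < r) :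
    ∃ C : ℝ, 0 ≤ C ∧ ∀ (n : ℕ) (x : ℕ → ℝ) (k : ℤ),
      ∏ j ∈ range n, weight θ c (orbitPoint θ (k - 1 - j) x) ≤ C * r ^ n := by
  obtain ⟨M, hM⟩ := ((sum_cθ hθ hc hlog).eventually (eventually_ge_atTop (-Real.log r))).exists
  refine ⟨Real.exp (∑ i ∈ range M, c i), (Real.exp_pos _).le, fun n x k => ?_⟩
  refine (prod_le_prod (fun j _ => weight_nonneg _ _ _) fun j _ => weight_le θ c _ M).trans ?_
  rw [← Real.exp_sum, ← Real.exp_log hr, ← Real.exp_nat_mul, ← Real.exp_add]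
  refine Real.exp_le_exp.2 ?_
  rw [sum_neg_distrib, sum_comm]
  have h1 : ∑ i ∈ range M, c i * (n * θ i - 1) ≤ ∑ i ∈ range M, ∑ j ∈ range n,
      c i * (⌊orbitPoint θ (k - 1 - j) x i + θ i⌋ : ℝ) := by
    refine sum_le_sum fun i _ => ?_
    rw [← mul_sum]
    exact mul_le_mul_of_nonneg_left (tele (x i) (θ i) k n) (hc i)
  have h2 : ∑ i ∈ range M, c i * (n * θ i - 1)
      = n * ∑ i ∈ range M, c i * θ i - ∑ i ∈ range M, c i := by
    rw [mul_sum, ← sum_sub_distrib]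
    exact sum_congr rfl fun i _ => by ring
  have h3 := mul_le_mul_of_nonneg_left hM (Nat.cast_nonneg n)
  linarith

/-- the terms are `≥ 0`; if they were summable then (`ofReal_integral_eq_lintegral_ofReal`, `lintegral_tsum`,
`Real.hasSum_pow_div_log_of_abs_lt_one`) `∫⁻ ofReal (-log (w ^ 2)) < ⊤`. -/
theorem sum_top (hpos : ∀ᵐ x ∂cubeMeasure, 0 < weight θ c x)
    (hlog : ∫⁻ x, ENNReal.ofReal (- Real.log (weight θ c x)) ∂cubeMeasure = ⊤) :
    Tendsto (fun n => ∑ j ∈ range n,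
      (∫ x, (1 - weight θ c x ^ 2) ^ (j + 1) ∂cubeMeasure) / ((j : ℝ) + 1)) atTop atTop := by
  have w0 : ∀ x, 0 ≤ 1 - weight θ c x ^ 2 := fun x => by
    have := weight_nonneg θ c x
    have := weight_le_one θ c x
    nlinarith
  have w1 : ∀ x, 1 - weight θ c x ^ 2 ≤ 1 := fun x => by nlinarith [sq_nonneg (weight θ c x)]
  have hm : ∀ j : ℕ, Measurable fun x => (1 - weight θ c x ^ 2) ^ (j + 1) / ((j : ℝ) + 1) :=
    fun j => ((measurable_const.sub ((measurable_weight θ c).pow_const 2)).pow_const _).div_const _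
  have h0 : ∀ j : ℕ, 0 ≤ (∫ x, (1 - weight θ c x ^ 2) ^ (j + 1) ∂cubeMeasure) / ((j : ℝ) + 1) :=
    fun j => div_nonneg (integral_nonneg fun x => pow_nonneg (w0 x) _) (by positivity)
  rw [← not_summable_iff_tendsto_nat_atTop_of_nonneg h0]
  intro hs
  have h1 : ∀ j : ℕ, ENNReal.ofReal
      ((∫ x, (1 - weight θ c x ^ 2) ^ (j + 1) ∂cubeMeasure) / ((j : ℝ) + 1)) =
      ∫⁻ x, ENNReal.ofReal ((1 - weight θ c x ^ 2) ^ (j + 1) / ((j : ℝ) + 1)) ∂cubeMeasure := by
    intro j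
    rw [← integral_div]
    refine ofReal_integral_eq_lintegral_ofReal ?_ (Eventually.of_forall fun x =>
      div_nonneg (pow_nonneg (w0 x) _) (by positivity))
    refine Integrable.of_bound (hm j).aestronglyMeasurable 1 (Eventually.of_forall fun x => ?_)
    rw [Real.norm_of_nonneg (div_nonneg (pow_nonneg (w0 x) _) (by positivity)),
      div_le_one (by positivity)]
    have := pow_le_one₀ (n := j + 1) (w0 x) (w1 x)
    have : (0 : ℝ) ≤ j := Nat.cast_nonneg j
    linarith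
  have h2 := ENNReal.ofReal_tsum_of_nonneg h0 hs
  simp only [h1] at h2
  rw [← lintegral_tsum fun j => (hm j).ennreal_ofReal.aemeasurable] at h2
  have h3 : ∫⁻ x, ENNReal.ofReal (- Real.log (weight θ c x)) ∂cubeMeasure ≤ ∫⁻ x, ∑' j : ℕ,
      ENNReal.ofReal ((1 - weight θ c x ^ 2) ^ (j + 1) / ((j : ℝ) + 1)) ∂cubeMeasure := by
    refine lintegral_mono_ae ?_
    filter_upwards [hpos] with x hx
    have a1 : |1 - weight θ c x ^ 2| < 1 := by
      rw [abs_of_nonneg (w0 x)]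
      have := pow_pos hx 2
      linarith
    have a2 := Real.hasSum_pow_div_log_of_abs_lt_one a1
    rw [← ENNReal.ofReal_tsum_of_nonneg
      (fun j => div_nonneg (pow_nonneg (w0 x) _) (by positivity)) a2.summable, a2.tsum_eq]
    refine ENNReal.ofReal_le_ofReal ?_
    rw [sub_sub_cancel, Real.log_pow]
    have := Real.log_nonpos hx.le (weight_le_one θ c x)
    push_cast
    linarith
  rw [hlog] at h3
  exact ENNReal.ofReal_ne_top (h2.trans (top_le_iff.1 h3))

end Crest.Agent.R113c
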