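import Crest.Agent.R113c.Abs
import Crest.Prelude.Def_ProductShift

/-! S0151: the vector state. -/

set_option autoImplicit false
open Finset Filter Crest.AnalysisR.ProductShift

namespace Crest.Agent.R113c

variable {H : Type*} [NormedAddCommGroup H] [InnerProductSpace ℂ H] [CompleteSpace H] {ξ : H}

/-- real part of the vector state -/
noncomputable def tau (ξ : H) : (H →L[ℂ] H) →L[ℝ] ℝ :=
  Complex.reCLM ∘L ((innerSL ℂ ξ).restrictScalars ℝ) ∘L
    ((ContinuousLinearMap.apply ℂ H ξ).restrictScalars ℝ)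

omit [CompleteSpace H] in
theorem tau_apply (A : H →L[ℂ] H) : tau ξ A = RCLike.re (inner ℂ ξ (A ξ)) := rfl

theorem st_tau (hξ : ‖ξ‖ = 1) : St (tau ξ) where
  mono a b h := by
    have := ((ContinuousLinearMap.le_def a b).1 h).re_inner_nonneg_right ξ
    rw [← sub_nonneg, ← map_sub, tau_apply]
    exact this
  one := by rw [tau_apply, one_apply_eq_self, inner_self_eq_norm_sq, hξ, one_pow]
  le a := by
    rw [tau_apply]
    refine (RCLike.abs_re_le_norm _).trans ((norm_inner_le_norm _ _).trans ?_)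
    have := a.le_opNorm ξ
    rw [hξ] at this ⊢
    linarith
  star a := by
    rw [tau_apply, tau_apply, ContinuousLinearMap.star_eq_adjoint,
      ContinuousLinearMap.adjoint_inner_right, inner_re_symm]

omit [CompleteSpace H] in
theorem nontrivial_of (hξ : ‖ξ‖ = 1) : Nontrivial (H →L[ℂ] H) :=
  ⟨1, 0, fun h => by
    have : ξ = 0 := by simpa using congrArg (fun A : H →L[ℂ] H => A ξ) h
    rw [this, norm_zero] at hξ
    exact zero_ne_one hξ⟩

theorem tau_comm {A T R : H →L[ℂ] H} (hc : R * A = A * R) (h1 : R ξ = T ξ)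
    (h2 : star R ξ = star T ξ) : tau ξ (A * T) = tau ξ (T * A) := by
  rw [tau_apply, tau_apply, mul_apply_eq_comp, ← h1, ← mul_apply_eq_comp,
    ← hc, mul_apply_eq_comp, mul_apply_eq_comp,
    ← ContinuousLinearMap.adjoint_inner_left, ← ContinuousLinearMap.adjoint_inner_left T,
    ← ContinuousLinearMap.star_eq_adjoint, ← ContinuousLinearMap.star_eq_adjoint, h2]

theorem inv_comm {M : Type*} [Monoid M] {g X R : M} (h : g * X = X * g) (r1 : R * X = 1)
    (r2 : X * R = 1) : g * R = R * g := by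
  calc g * R = R * X * g * R := by rw [r1, one_mul]
    _ = R * g * (X * R) := by rw [mul_assoc R X g, ← h]; simp only [mul_assoc]
    _ = R * g := by rw [r2, mul_one]

theorem hil_one (hξ : ‖ξ‖ = 1) {S R : H →L[ℂ] H} (c1 : R * S = S * R)
    (c2 : R * star S = star S * R) (h1 : R ξ = S ξ) (h2 : star R ξ = star S ξ)
    (h0 : ∀ n : ℕ, tau ξ (S ^ (n + 1)) = 0)
    (hq : ∀ r : ℝ, 0 < r → ∃ C : ℝ, ∀ n : ℕ, ‖S ^ n‖ ≤ C * r ^ n) {r : ℝ} (hr : 0 < r) :
    ⨅ ε : {r : ℝ // 0 < r}, Real.exp (tau ξ (cfc Real.log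
      (r ^ 2 • (star (1 - S) * (1 - S)) + algebraMap ℝ (H →L[ℂ] H) ε)) / 2) = r := by
  have := nontrivial_of hξ
  have c3 : star R * S = S * star R := by simpa using (congrArg star c2).symm
  have c4 : star R * star S = star S * star R := by simpa using (congrArg star c1).symm
  have mem : ∀ A : H →L[ℂ] H, A ∈ Subalgebra.centralizer ℝ ({R, star R} : Set (H →L[ℂ] H)) ↔
      R * A = A * R ∧ star R * A = A * star R := fun A => by
    simp [Subalgebra.mem_centralizer_iff]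
  refine det_ne (st_tau hξ) (Subalgebra.centralizer ℝ ({R, star R} : Set (H →L[ℂ] H)))
    ⟨(mem _).2 ⟨c1, c3⟩, fun A hA => tau_comm ((mem A).1 hA).1 h1 h2⟩
    ⟨(mem _).2 ⟨c2, c4⟩, fun A hA => tau_comm ((mem A).1 hA).2 h2 (by simpa using h1)⟩
    (fun t => ?_) hr
  have hs : Summable fun n : ℕ => (t • S) ^ n := by
    obtain ⟨C, hC⟩ := hq (2 * (|t| + 1))⁻¹ (by positivity)
    refine Summable.of_norm_bounded (g := fun n => |C| * (1 / 2) ^ n)
      (summable_geometric_two.mul_left _) fun n => ?_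
    rw [smul_pow, norm_smul, norm_pow, Real.norm_eq_abs]
    have a1 : |t| * (2 * (|t| + 1))⁻¹ ≤ 1 / 2 := by
      rw [← div_eq_mul_inv, div_le_iff₀ (by positivity)]; linarith
    calc |t| ^ n * ‖S ^ n‖ ≤ |t| ^ n * (|C| * (2 * (|t| + 1))⁻¹ ^ n) :=
          mul_le_mul_of_nonneg_left ((hC n).trans (mul_le_mul_of_nonneg_right (le_abs_self C)
            (by positivity))) (by positivity)
      _ = |C| * (|t| * (2 * (|t| + 1))⁻¹) ^ n := by rw [mul_pow]; ring
      _ ≤ _ := mul_le_mul_of_nonneg_left (pow_le_pow_left₀ (by positivity) a1 n) (abs_nonneg _)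
  have r1 := hs.tsum_pow_mul_one_sub
  have r2 := hs.one_sub_mul_tsum_pow
  have r3 : star (∑' n : ℕ, (t • S) ^ n) * star (1 - t • S) = 1 := by rw [← star_mul, r2, star_one]
  have r4 : star (1 - t • S) * star (∑' n : ℕ, (t • S) ^ n) = 1 := by rw [← star_mul, r1, star_one]
  refine ⟨_, (mem _).2 ⟨inv_comm ?_ r1 r2, inv_comm ?_ r1 r2⟩,
    (mem _).2 ⟨inv_comm ?_ r3 r4, inv_comm ?_ r3 r4⟩, r1, r2, ?_⟩
  · simp [mul_sub, sub_mul, c1]
  · simp [mul_sub, sub_mul, c3]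
  · simp [mul_sub, sub_mul, c2]
  · simp [mul_sub, sub_mul, c4]
  · rw [← hs.tsum_mul_left, (tau ξ).map_tsum (hs.mul_left S)]
    have : ∀ n : ℕ, tau ξ (S * (t • S) ^ n) = 0 := fun n => by
      rw [smul_pow, mul_smul_comm, map_smul, ← pow_succ', h0, smul_zero]
    simp [this]

theorem hil_ne (hξ : ‖ξ‖ = 1) {T R : H →L[ℂ] H} (c1 : R * T = T * R)
    (c2 : R * star T = star T * R) (h1 : R ξ = T ξ) (h2 : star R ξ = star T ξ)
    (h0 : ∀ n : ℕ, inner ℂ ξ ((T ^ (n + 1)) ξ) = 0)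
    (hq : ∀ r : ℝ, 0 < r → ∃ C : ℝ, ∀ n : ℕ, ‖T ^ n‖ ≤ C * r ^ n) {z : ℂ} (hz : z ≠ 0) :
    vectorDet ξ (T - z • (1 : H →L[ℂ] H)) = ‖z‖ := by
  have z0 : 0 < ‖z‖ := norm_pos_iff.2 hz
  have key := hil_one hξ (S := z⁻¹ • T) (R := z⁻¹ • R) (by simp [c1]) (by simp [c2, smul_smul, mul_comm])
    (by simp [h1]) (by simp only [star_smul, smul_apply, h2])
    (fun n => by
      rw [tau_apply, smul_pow, smul_apply, inner_smul_right, h0]; simp)
    (fun r hr => by
      obtain ⟨C, hC⟩ := hq (‖z‖ * r) (by positivity)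
      refine ⟨C, fun n => ?_⟩
      rw [smul_pow, norm_smul, norm_pow, norm_inv, inv_pow, inv_mul_le_iff₀ (by positivity)]
      exact (hC n).trans_eq (by rw [mul_pow]; ring)) z0
  rw [← key]
  unfold vectorDet
  congr 1
  funext ε
  rw [tau_apply]
  have e1 : T - z • (1 : H →L[ℂ] H) = (-z) • (1 - z⁻¹ • T) := by
    rw [smul_sub, smul_smul, neg_mul, mul_inv_cancel₀ hz]; simp; abel
  have e2 : star (T - z • (1 : H →L[ℂ] H)) * (T - z • (1 : H →L[ℂ] H)) +
      ((ε : ℝ) : ℂ) • (1 : H →L[ℂ] H) =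
      ‖z‖ ^ 2 • (star (1 - z⁻¹ • T) * (1 - z⁻¹ • T)) + algebraMap ℝ (H →L[ℂ] H) ε := by
    rw [e1, star_smul, smul_mul_smul_comm, Algebra.algebraMap_eq_smul_one, Complex.coe_smul,
      ← Complex.coe_smul (‖z‖ ^ 2)]
    congr 2
    simp [Complex.conj_mul']
  rw [e2]

theorem hil_zero (hξ : ‖ξ‖ = 1) {T : H →L[ℂ] H} (hT : ‖T‖ ≤ 1)
    (ha : Tendsto (fun n => ∑ j ∈ range n, tau ξ ((1 - star T * T) ^ (j + 1)) / ((j : ℝ) + 1))
      atTop atTop) : vectorDet ξ T = 0 := by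
  have := nontrivial_of hξ
  rw [← det_zero (st_tau hξ) hT ha]
  unfold vectorDet
  congr 1

end Crest.Agent.R113c
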