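import Crest.Agent.R113c.W
import Crest.Agent.R113c.Dec
import Crest.Agent.R113c.Hil

/-! S0151: assembly. -/

set_option autoImplicit false
open MeasureTheory Filter Finset Crest.AnalysisR.ProductShift

namespace Crest.Agent.R113c

variable {θ c : ℕ → ℝ} {T R : pairSpace →L[ℂ] pairSpace}

theorem abs_weight (θ c x : ℕ → ℝ) : |weight θ c x| ≤ 1 := by
  rw [abs_of_nonneg (weight_nonneg θ c x)]; exact weight_le_one θ c x

theorem IsW.congr' {A : pairSpace →L[ℂ] pairSpace} {m m' : (ℕ → ℝ) × ℤ → ℝ}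
    {φ φ' : (ℕ → ℝ) × ℤ → (ℕ → ℝ) × ℤ} (h : IsW A m φ) (hm : ∀ p, m p = m' p)
    (hφ : ∀ p, φ p = φ' p) : IsW A m' φ' :=
  h.congr (Eventually.of_forall hm) (Eventually.of_forall hφ)

theorem vac_W {A : pairSpace →L[ℂ] pairSpace} {m : (ℕ → ℝ) × ℤ → ℝ}
    {φ : (ℕ → ℝ) × ℤ → (ℕ → ℝ) × ℤ} (h : IsW A m φ)
    (hφ : MeasurePreserving φ pairMeasure pairMeasure) :
    (A vacuumVector : (ℕ → ℝ) × ℤ → ℂ) =ᵐ[pairMeasure]
      fun p => if (φ p).2 = 0 then (m p : ℂ) else 0 := by
  filter_upwards [h vacuumVector, hφ.quasiMeasurePreserving.ae vac_ae] with p h1 h2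
  rw [h1, h2]
  split_ifs <;> simp

theorem mw (θ c : ℕ → ℝ) :
    Measurable fun p : (ℕ → ℝ) × ℤ => weight θ c (orbitPoint θ p.2 p.1) :=
  (measurable_weight θ c).comp (measurable_orbit θ)

theorem mw0 (θ c : ℕ → ℝ) :
    Measurable fun p : (ℕ → ℝ) × ℤ => weight θ c (orbitPoint θ 0 p.1) :=
  (measurable_weight θ c).comp ((mp_orbit θ 0).measurable.comp measurable_fst)

theorem wT (hT : IsWeightedShift θ c T) :
    IsW T (fun p => weight θ c (orbitPoint θ (p.2 + -1) p.1)) (fun p => (p.1, p.2 + -1)) := hT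

theorem wT' (hT : IsWeightedShift θ c T) :
    IsW (star T) (fun p => weight θ c (orbitPoint θ p.2 p.1)) (fun p => (p.1, p.2 + 1)) := by
  have hm := (mw θ c).fun_comp (mp_shift0 (-1)).measurable
  have h := (wT hT).star hm (fun _ => abs_weight _ _ _) (mp_shift0 1)
    (Eventually.of_forall fun p => by simp)
  exact h.congr' (fun p => by simp) fun _ => rfl

theorem wY (hT : IsWeightedShift θ c T) (n : ℕ) : IsW ((1 - star T * T) ^ n)
    (fun p => (1 - weight θ c (orbitPoint θ p.2 p.1) ^ 2) ^ n) id := by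
  have w1 : IsW (1 - star T * T) (fun p => 1 - weight θ c (orbitPoint θ p.2 p.1) ^ 2) id :=
    IsW.one_sub (((wT' hT).mul (wT hT) (mp_shift0 1)).congr' (fun p => by simp [sq])
      fun p => by simp)
  induction n with
  | zero => exact isW_one.congr' (fun p => by simp) fun _ => rfl
  | succ n ih =>
    rw [pow_succ]
    exact (ih.mul w1 (MeasurePreserving.id _)).congr' (fun p => by simp [pow_succ]) fun _ => rfl

theorem tau_Y (hT : IsWeightedShift θ c T) (n : ℕ) : tau vacuumVector ((1 - star T * T) ^ n) =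
    ∫ x, (1 - weight θ c x ^ 2) ^ n ∂cubeMeasure := by
  have h := inner_vac _ _ ((measurable_const.sub ((mw θ c).pow_const 2)).pow_const n)
    (vac_W (wY hT n) (MeasurePreserving.id _))
  rw [tau_apply, h, RCLike.re_to_complex, Complex.ofReal_re]
  refine integral_congr_ae ?_
  filter_upwards [ae_orbit_zero θ] with x hx
  simp [hx]

theorem main_zero (hpos : ∀ᵐ x ∂cubeMeasure, 0 < weight θ c x)
    (hlog : ∫⁻ x, ENNReal.ofReal (- Real.log (weight θ c x)) ∂cubeMeasure = ⊤)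
    (hT : IsWeightedShift θ c T) : vectorDet vacuumVector T = 0 := by
  refine hil_zero norm_vac ((wT hT).norm_le (mp_shift0 _) zero_le_one fun _ => abs_weight _ _ _) ?_
  simp only [tau_Y hT]
  exact sum_top hpos hlog

theorem wn (hT : IsWeightedShift θ c T) (n : ℕ) : IsW (T ^ n)
    (fun p => ∏ j ∈ range n, weight θ c (orbitPoint θ (p.2 - 1 - j) p.1))
    (fun p => (p.1, p.2 + -n)) := by
  induction n with
  | zero => exact isW_one.congr' (fun p => by simp) fun p => by simp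
  | succ n ih =>
    rw [pow_succ]
    refine (ih.mul (wT hT) (mp_shift0 _)).congr' (fun p => ?_) fun p => ?_
    · rw [prod_range_succ, show p.2 - 1 - (n : ℤ) = p.2 + -n + -1 by ring]
    · rw [show p.2 + -((n + 1 : ℕ) : ℤ) = p.2 + -n + -1 by push_cast; ring]

theorem inner_pow (hT : IsWeightedShift θ c T) (n : ℕ) :
    inner ℂ vacuumVector ((T ^ (n + 1)) vacuumVector) = 0 := by
  rw [L2.inner_def]
  refine integral_eq_zero_of_ae ?_
  filter_upwards [vac_ae, vac_W (wn hT (n + 1)) (mp_shift0 _)] with p h1 h2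
  rw [h1, h2]
  by_cases h : p.2 = 0
  · rw [if_neg (show ¬ p.2 + -((n + 1 : ℕ) : ℤ) = 0 by omega)]; simp
  · rw [if_neg h]; simp

theorem exists_R (hT : IsWeightedShift θ c T) : ∃ R : pairSpace →L[ℂ] pairSpace,
    R * T = T * R ∧ R * star T = star T * R ∧ R vacuumVector = T vacuumVector ∧
      star R vacuumVector = star T vacuumVector := by
  obtain ⟨R, wR⟩ := exists_W (mw0 θ c) (fun _ => abs_weight _ _ _) (mp_shift θ 1 (-1))
  have wR' : IsW (star R) (fun p => weight θ c (orbitPoint θ (-1) p.1))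
      (fun p => (orbitPoint θ (-1) p.1, p.2 + 1)) :=
    (wR.star (mw0 θ c) (fun _ => abs_weight _ _ _) (mp_shift θ (-1) 1) (by
      filter_upwards [ae_orbit_zero' θ] with p hp
      simp [orbit_orbit, hp])).congr' (fun p => by simp [orbit_orbit]) fun _ => rfl
  refine ⟨R, ?_, ?_, ?_, ?_⟩
  · refine (wR.mul (wT hT) (mp_shift θ 1 (-1))).unique
      (((wT hT).mul wR (mp_shift0 _)).congr' (fun p => ?_) fun _ => rfl)
    simp [orbit_orbit, mul_comm]
  · refine (wR.mul (wT' hT) (mp_shift θ 1 (-1))).unique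
      (((wT' hT).mul wR (mp_shift0 _)).congr' (fun p => ?_) fun p => ?_)
    · simp [orbit_orbit, mul_comm]
    · simp
  · refine Lp.ext ?_
    filter_upwards [vac_W wR (mp_shift θ 1 (-1)), vac_W (wT hT) (mp_shift0 _)] with p h1 h2
    rw [h1, h2]
    split_ifs with h
    · rw [h]
    · rfl
  · refine Lp.ext ?_
    filter_upwards [vac_W wR' (mp_shift θ (-1) 1), vac_W (wT' hT) (mp_shift0 _)] with p h1 h2
    rw [h1, h2]
    split_ifs with h
    · rw [show p.2 = -1 by omega]
    · rfl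

theorem main (hθ : ∀ i, 0 < θ i ∧ θ i < 1) (hc : ∀ i, 0 ≤ c i)
    (hpos : ∀ᵐ x ∂cubeMeasure, 0 < weight θ c x)
    (hlog : ∫⁻ x, ENNReal.ofReal (- Real.log (weight θ c x)) ∂cubeMeasure = ⊤)
    (hT : IsWeightedShift θ c T) (z : ℂ) :
    vectorDet vacuumVector (T - z • (1 : pairSpace →L[ℂ] pairSpace)) = ‖z‖ := by
  rcases eq_or_ne z 0 with rfl | hz
  · rw [zero_smul, sub_zero, norm_zero]
    exact main_zero hpos hlog hT
  obtain ⟨R, c1, c2, c3, c4⟩ := exists_R hT
  refine hil_ne norm_vac c1 c2 c3 c4 (inner_pow hT) (fun r hr => ?_) hz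
  obtain ⟨C, C0, hC⟩ := prod_weight_le hθ hc hlog hr
  refine ⟨C, fun n => (wn hT n).norm_le (mp_shift0 _) (by positivity) fun p => ?_⟩
  rw [abs_of_nonneg (prod_nonneg fun j _ => weight_nonneg _ _ _)]
  exact hC n p.1 p.2

end Crest.Agent.R113c
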