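import Mathlib
import Crest.Prelude.Def_ProductShift

/-! S0151: the rotation of the cube, the weight, the vacuum vector. -/

set_option autoImplicit false
open MeasureTheory Filter Finset Crest.AnalysisR.ProductShift

namespace Crest.Agent.R113c

variable {θ c : ℕ → ℝ}

theorem OrbX.mp_fract (a : ℝ) :
    MeasurePreserving (fun y : ℝ => Int.fract (y + a)) unitLebesgue unitLebesgue := by
  have hm : Measurable fun y : ℝ => Int.fract (y + a) :=
    measurable_fract.comp (measurable_id.add_const _)
  refine ⟨hm, Measure.ext fun s hs => ?_⟩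
  have hA : MeasurableSet (Int.fract ⁻¹' s : Set ℝ) := measurable_fract hs
  have h1 := (isAddFundamentalDomain_Ioc (T := 1) one_pos a).measure_set_eq
    (isAddFundamentalDomain_Ioc (T := 1) one_pos 0) hA fun g => by
      obtain ⟨g, n, rfl⟩ := g
      ext y
      show Int.fract (n • (1 : ℝ) + y) ∈ s ↔ Int.fract y ∈ s
      rw [zsmul_one, Int.fract_intCast_add]
  rw [← Measure.restrict_apply hA, ← Measure.restrict_apply hA, ← restrict_Ico_eq_restrict_Ioc,
    ← restrict_Ico_eq_restrict_Ioc, Measure.restrict_apply hA, Measure.restrict_apply hA,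
    zero_add] at h1
  rw [Measure.map_apply hm hs, unitLebesgue, Measure.restrict_apply (hm hs),
    Measure.restrict_apply hs]
  have e1 : (fun y : ℝ => Int.fract (y + a)) ⁻¹' s ∩ Set.Ico 0 1 =
      (fun y => y + a) ⁻¹' (Int.fract ⁻¹' s ∩ Set.Ico a (a + 1)) := by
    ext y
    simp only [Set.mem_inter_iff, Set.mem_preimage, Set.mem_Ico]
    refine and_congr_right fun _ => ?_
    constructor <;> rintro ⟨h1, h2⟩ <;> constructor <;> linarith
  have e2 : Int.fract ⁻¹' s ∩ Set.Ico (0 : ℝ) 1 = s ∩ Set.Ico 0 1 := by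
    ext y
    simp only [Set.mem_inter_iff, Set.mem_preimage]
    refine and_congr_left fun h => ?_
    rw [Int.fract_eq_self.2 h]
  rw [e1, measure_preimage_add_right, h1, e2]

theorem orbit_orbit (θ : ℕ → ℝ) (k l : ℤ) (x : ℕ → ℝ) :
    orbitPoint θ k (orbitPoint θ l x) = orbitPoint θ (k + l) x := by
  funext i
  simp only [orbitPoint]
  rw [Int.fract_eq_fract]
  refine ⟨-⌊x i + l * θ i⌋, ?_⟩
  rw [Int.fract]
  push_cast
  ring

theorem measurable_orbit (θ : ℕ → ℝ) :
    Measurable fun p : (ℕ → ℝ) × ℤ => orbitPoint θ p.2 p.1 := by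
  refine measurable_pi_lambda _ fun i => measurable_fract.comp ?_
  exact ((measurable_pi_apply i).comp measurable_fst).add
    (((measurable_from_top (f := fun k : ℤ => (k : ℝ))).comp measurable_snd).mul_const _)

/-- `x ↦ fract (x + a)` preserves `unitLebesgue` (e.g. `IsAddFundamentalDomain.measure_set_eq` with
`isAddFundamentalDomain_Ioc`, applied to the periodic set `fract ⁻¹' s`), then the product. -/
theorem mp_orbit (θ : ℕ → ℝ) (k : ℤ) :
    MeasurePreserving (orbitPoint θ k) cubeMeasure cubeMeasure := by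
  have hm : ∀ i, Measurable fun y : ℝ => Int.fract (y + (k : ℝ) * θ i) := fun i =>
    measurable_fract.comp (measurable_id.add_const _)
  refine ⟨measurable_pi_lambda _ fun i => (hm i).comp (measurable_pi_apply i), ?_⟩
  have := Measure.infinitePi_map_pi (fun _ : ℕ => unitLebesgue) hm
  simp only [(OrbX.mp_fract _).map_eq] at this
  exact this

theorem ae_orbit_zero (θ : ℕ → ℝ) : ∀ᵐ x ∂cubeMeasure, orbitPoint θ 0 x = x := by
  have h : ∀ i : ℕ, ∀ᵐ x ∂cubeMeasure, x i ∈ Set.Ico (0 : ℝ) 1 := fun i =>
    (measurePreserving_eval_infinitePi (fun _ : ℕ => unitLebesgue) i).quasiMeasurePreserving.ae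
      (ae_restrict_mem measurableSet_Ico)
  filter_upwards [ae_all_iff.2 h] with x hx
  funext i
  simp only [orbitPoint, Int.cast_zero, zero_mul, add_zero]
  exact Int.fract_eq_self.2 (hx i)

theorem ae_orbit_zero' (θ : ℕ → ℝ) : ∀ᵐ p ∂pairMeasure, orbitPoint θ 0 p.1 = p.1 := by
  exact (Measure.quasiMeasurePreserving_fst (μ := cubeMeasure)
    (ν := (Measure.count : Measure ℤ))).ae (ae_orbit_zero θ)

theorem mp_shift (θ : ℕ → ℝ) (j n : ℤ) :
    MeasurePreserving (fun p : (ℕ → ℝ) × ℤ => (orbitPoint θ j p.1, p.2 + n))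
      pairMeasure pairMeasure := by
  exact (mp_orbit θ j).prod (measurePreserving_add_right Measure.count n)

theorem mp_shift0 (n : ℤ) :
    MeasurePreserving (fun p : (ℕ → ℝ) × ℤ => (p.1, p.2 + n)) pairMeasure pairMeasure := by
  exact (MeasurePreserving.id cubeMeasure).prod (measurePreserving_add_right Measure.count n)

theorem measurable_weight (θ c : ℕ → ℝ) : Measurable (weight θ c) := by
  have h : Measurable (dropCost θ c) := Measurable.ennreal_tsum fun i =>
    (((measurable_from_top (f := fun k : ℤ => (k : ℝ))).comp (Int.measurable_floor.comp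
      ((measurable_pi_apply i).add_const _))).const_mul _).ennreal_ofReal
  exact Measurable.ite (h (measurableSet_singleton _)) measurable_const
    (Real.measurable_exp.comp h.ennreal_toReal.neg)

theorem weight_nonneg (θ c x : ℕ → ℝ) : 0 ≤ weight θ c x := by
  unfold weight
  split_ifs
  · exact le_rfl
  · exact (Real.exp_pos _).le

theorem weight_le_one (θ c x : ℕ → ℝ) : weight θ c x ≤ 1 := by
  unfold weight
  split_ifs
  · exact zero_le_one
  · exact Real.exp_le_one_iff.2 (neg_nonpos.2 ENNReal.toReal_nonneg)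

theorem vac_ae : (vacuumVector : (ℕ → ℝ) × ℤ → ℂ) =ᵐ[pairMeasure]
    fun p => if p.2 = 0 then 1 else 0 := by
  refine indicatorConstLp_coeFn.trans (Eventually.of_forall fun p => ?_)
  simp [Set.indicator_apply]

theorem norm_vac : ‖vacuumVector‖ = 1 := by
  rw [vacuumVector, norm_indicatorConstLp (by simp) (by simp)]
  simp [pairMeasure, Measure.real, Measure.prod_prod]

/-- `L2.inner_def`; `pairMeasure.restrict (univ ×ˢ {0}) = map (fun x => (x, 0)) cubeMeasure`
(`Measure.prod_restrict`, `Measure.restrict_singleton`, `Measure.prod_dirac`). -/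
theorem inner_vac (g : pairSpace) (m : (ℕ → ℝ) × ℤ → ℝ) (hm : Measurable m)
    (hg : (g : (ℕ → ℝ) × ℤ → ℂ) =ᵐ[pairMeasure] fun p => if p.2 = 0 then (m p : ℂ) else 0) :
    inner ℂ vacuumVector g = ((∫ x, m (x, 0) ∂cubeMeasure : ℝ) : ℂ) := by
  have h : pairMeasure.restrict (Set.univ ×ˢ {0}) = cubeMeasure.map fun x => (x, (0 : ℤ)) := by
    rw [pairMeasure, ← Measure.prod_restrict, Measure.restrict_univ, Measure.restrict_singleton,
      Measure.count_singleton, one_smul, Measure.prod_dirac]
  have hm' : Measurable fun p : (ℕ → ℝ) × ℤ => if p.2 = 0 then (m p : ℂ) else 0 :=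
    Measurable.ite (measurable_snd (measurableSet_singleton _))
      (Complex.measurable_ofReal.comp hm) measurable_const
  rw [vacuumVector, L2.inner_indicatorConstLp_one, integral_congr_ae (ae_restrict_of_ae hg), h,
    integral_map measurable_prodMk_right.aemeasurable hm'.aestronglyMeasurable,
    ← integral_complex_ofReal]
  simp

end Crest.Agent.R113c
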