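import Mathlib

/-! S0151: weighted composition operators `g ↦ m · g ∘ φ` on `L²`. -/

set_option autoImplicit false
open MeasureTheory

namespace Crest.Agent.R113c

variable {Ω : Type} [MeasurableSpace Ω] {ν : Measure Ω}

/-- `A g = m · g ∘ φ` almost everywhere -/
def IsW (A : Lp ℂ 2 ν →L[ℂ] Lp ℂ 2 ν) (m : Ω → ℝ) (φ : Ω → Ω) : Prop :=
  ∀ g : Lp ℂ 2 ν, (A g : Ω → ℂ) =ᵐ[ν] fun p => (m p : ℂ) * (g : Ω → ℂ) (φ p)

variable {A A' : Lp ℂ 2 ν →L[ℂ] Lp ℂ 2 ν} {m m' : Ω → ℝ} {φ φ' ψ : Ω → Ω}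

theorem IsW.congr (h : IsW A m φ) (hm : m =ᵐ[ν] m') (hφ : φ =ᵐ[ν] φ') : IsW A m' φ' := by
  intro g
  filter_upwards [h g, hm, hφ] with p h1 h2 h3
  rw [h1, h2, h3]

theorem IsW.unique (h : IsW A m φ) (h' : IsW A' m φ) : A = A' := by
  ext1 g
  exact Lp.ext ((h g).trans (h' g).symm)

theorem isW_one : IsW (1 : Lp ℂ 2 ν →L[ℂ] Lp ℂ 2 ν) (fun _ => 1) id := by
  intro g
  filter_upwards with p
  simp

theorem IsW.one_sub (h : IsW A m id) : IsW (1 - A) (fun p => 1 - m p) id := by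
  intro g
  filter_upwards [h g, Lp.coeFn_sub g (A g)] with p h1 h2
  rw [ContinuousLinearMap.sub_apply, ContinuousLinearMap.one_apply, h2, Pi.sub_apply, h1]
  simp only [id]
  push_cast
  ring

theorem IsW.mul (h : IsW A m φ) (h' : IsW A' m' φ') (hφ : MeasurePreserving φ ν ν) :
    IsW (A * A') (fun p => m p * m' (φ p)) (fun p => φ' (φ p)) := by
  intro g
  filter_upwards [h (A' g), hφ.quasiMeasurePreserving.ae (h' g)] with p h1 h2
  rw [ContinuousLinearMap.mul_apply, h1, h2]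
  push_cast
  ring

/-- `‖m · g ∘ φ‖ ≤ C ‖g ∘ φ‖ = C ‖g‖` (`Lp.norm_le_mul_norm_of_ae_le_mul`,
`Lp.compMeasurePreserving`, `Lp.norm_compMeasurePreserving`). -/
theorem IsW.norm_le (h : IsW A m φ) (hφ : MeasurePreserving φ ν ν) {C : ℝ} (hC : 0 ≤ C)
    (hb : ∀ p, |m p| ≤ C) : ‖A‖ ≤ C := by
  refine A.opNorm_le_bound hC fun g => ?_
  rw [← Lp.norm_compMeasurePreserving g hφ]
  refine Lp.norm_le_mul_norm_of_ae_le_mul ?_
  filter_upwards [h g, Lp.coeFn_compMeasurePreserving g hφ] with p h1 h2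
  rw [h1, h2, norm_mul, Complex.norm_real, Real.norm_eq_abs]
  exact mul_le_mul_of_nonneg_right (hb p) (norm_nonneg _)

/-- `LinearMap.mkContinuous` of `g ↦ MemLp.toLp (fun p => m p * g (φ p)) _`. -/
theorem exists_W (hm : Measurable m) (hb : ∀ p, |m p| ≤ 1) (hφ : MeasurePreserving φ ν ν) :
    ∃ A : Lp ℂ 2 ν →L[ℂ] Lp ℂ 2 ν, IsW A m φ := by
  have le : ∀ (g : Lp ℂ 2 ν) (p : Ω), ‖(m p : ℂ) * (g : Ω → ℂ) (φ p)‖ ≤ ‖(g : Ω → ℂ) (φ p)‖ :=
    fun g p => by
      rw [norm_mul, Complex.norm_real, Real.norm_eq_abs]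
      exact mul_le_of_le_one_left (norm_nonneg _) (hb p)
  have mem : ∀ g : Lp ℂ 2 ν, MemLp (fun p => (m p : ℂ) * (g : Ω → ℂ) (φ p)) 2 ν := fun g =>
    ((Lp.memLp g).comp_measurePreserving hφ).of_le
      ((Complex.measurable_ofReal.comp hm).aestronglyMeasurable.mul
        ((Lp.memLp g).comp_measurePreserving hφ).1) (Filter.Eventually.of_forall (le g))
  refine ⟨LinearMap.mkContinuous
    { toFun := fun g => (mem g).toLp _
      map_add' := fun g g' => Lp.ext ?_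
      map_smul' := fun c g => Lp.ext ?_ } 1 fun g => ?_, fun g => (mem g).coeFn_toLp⟩
  · filter_upwards [(mem (g + g')).coeFn_toLp, (mem g).coeFn_toLp, (mem g').coeFn_toLp,
      Lp.coeFn_add ((mem g).toLp _) ((mem g').toLp _),
      hφ.quasiMeasurePreserving.ae (Lp.coeFn_add g g')] with p h1 h2 h3 h4 h5
    rw [h1, h4, Pi.add_apply, h2, h3, h5, Pi.add_apply, mul_add]
  · filter_upwards [(mem (c • g)).coeFn_toLp, (mem g).coeFn_toLp,
      Lp.coeFn_smul c ((mem g).toLp _),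
      hφ.quasiMeasurePreserving.ae (Lp.coeFn_smul c g)] with p h1 h2 h4 h5
    rw [h1, RingHom.id_apply, h4, Pi.smul_apply, h2, h5, Pi.smul_apply, smul_eq_mul, smul_eq_mul,
      mul_left_comm]
  · rw [← Lp.norm_compMeasurePreserving g hφ]
    refine Lp.norm_le_mul_norm_of_ae_le_mul ?_
    filter_upwards [(mem g).coeFn_toLp, Lp.coeFn_compMeasurePreserving g hφ] with p h1 h2
    rw [one_mul, h2]
    exact (congrArg norm h1).trans_le (le g p)

/-- Take `B` from `exists_W` for `(m ∘ ψ, ψ)`; `⟪B f, g⟫ = ∫ (conj (m f) · g ∘ φ) ∘ ψ = ⟪f, A g⟫`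
(`L2.inner_def`, `integral_map` with `hψ.map_eq`), so `B = adjoint A`
(`ContinuousLinearMap.eq_adjoint_iff`, `ContinuousLinearMap.star_eq_adjoint`). -/
theorem IsW.star (h : IsW A m φ) (hm : Measurable m) (hb : ∀ p, |m p| ≤ 1)
    (hψ : MeasurePreserving ψ ν ν) (hi : ∀ᵐ p ∂ν, φ (ψ p) = p) :
    IsW (star A) (fun p => m (ψ p)) ψ := by
  obtain ⟨B, hB⟩ := exists_W (m := fun p => m (ψ p)) (hm.comp hψ.measurable) (fun p => hb _) hψ
  have e : B = Star.star A := by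
    rw [ContinuousLinearMap.star_eq_adjoint, ContinuousLinearMap.eq_adjoint_iff]
    intro f g
    have a1 : ∫ p, inner ℂ ((f : Ω → ℂ) p) ((A g : Ω → ℂ) p) ∂ν =
        ∫ p, inner ℂ ((f : Ω → ℂ) (ψ p)) ((A g : Ω → ℂ) (ψ p)) ∂ν := by
      have := integral_map (μ := ν) hψ.measurable.aemeasurable
        (f := fun p => inner ℂ ((f : Ω → ℂ) p) ((A g : Ω → ℂ) p))
        (by rw [hψ.map_eq]; exact (L2.integrable_inner f (A g)).1)
      rwa [hψ.map_eq] at this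
    rw [L2.inner_def, L2.inner_def, a1]
    refine integral_congr_ae ?_
    filter_upwards [hB f, hψ.quasiMeasurePreserving.ae (h g), hi] with p h1 h2 h3
    rw [h1, h2, h3]
    simp only [RCLike.inner_apply, map_mul, Complex.conj_ofReal]
    ring
  rwa [e] at hB

end Crest.Agent.R113c
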